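import Mathlib

/-!
Definitions for the literal form of the switch chain of problem P335: the chain that, when it
does not stay put, chooses a 4-element vertex set `S` uniformly, then an ordered pair `(F, F')`
of distinct perfect matchings of the complete graph on `S` uniformly, and replaces `F` by `F'`
if both edges of `F` are present and both edges of `F'` are absent.

This file holds definitions only (used to state helper lemmas; the hand-in statement writes
them out inline).
-/

namespace Vale.Agent.Lead.KTVLiteral

open Classical

variable {n : ℕ}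

/-- `F` is a perfect matching of the complete graph on the vertex set `S`: every edge of `F`
is a non-loop with both ends in `S`, and every vertex of `S` lies in exactly one edge of `F`. -/
def PM (S : Finset (Fin n)) (F : Finset (Sym2 (Fin n))) : Prop :=
  (∀ e ∈ F, ¬ e.IsDiag ∧ ∀ v ∈ e, v ∈ S) ∧ (∀ v ∈ S, ∃! e, e ∈ F ∧ v ∈ e)

/-- One step from `G` once the ordered pair `(F, F')` has been chosen: if all edges of `F` are
present and all edges of `F'` are absent, replace `F` by `F'`; otherwise stay put. -/
noncomputable def step (G : SimpleGraph (Fin n)) (F F' : Finset (Sym2 (Fin n))) :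
    SimpleGraph (Fin n) :=
  if (∀ e ∈ F, e ∈ G.edgeSet) ∧ (∀ e ∈ F', e ∉ G.edgeSet)
  then SimpleGraph.fromEdgeSet
    ((G.edgeSet \ (F : Set (Sym2 (Fin n)))) ∪ (F' : Set (Sym2 (Fin n))))
  else G

/-- The ordered pairs of distinct perfect matchings of the complete graph on `S`. -/
noncomputable def pairs (S : Finset (Fin n)) :
    Finset (Finset (Sym2 (Fin n)) × Finset (Sym2 (Fin n))) :=
  Finset.univ.filter fun FF => PM S FF.1 ∧ PM S FF.2 ∧ FF.1 ≠ FF.2

/-- The transition matrix of the chain, written as in the problem statement. -/
noncomputable def literalChain (n : ℕ) (d : Fin n → ℕ) :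
    Matrix {G : SimpleGraph (Fin n) // ∀ i, G.degree i = d i}
      {G : SimpleGraph (Fin n) // ∀ i, G.degree i = d i} ℝ := fun G G' =>
  (1 / 2 : ℝ) * (if G' = G then 1 else 0) +
  (1 / 2 : ℝ) * ∑ S ∈ (Finset.univ : Finset (Fin n)).powersetCard 4,
    (1 / (n.choose 4 : ℝ)) *
      ∑ FF ∈ pairs S, (1 / 6 : ℝ) * (if step G.1 FF.1 FF.2 = G'.1 then 1 else 0)

end Vale.Agent.Lead.KTVLiteral
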